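import Vale.Agent.P329.H817.CompInst
import Vale.Agent.P329.H320.OfK

/-!
# P329 / row K: from the core (row J) to all chains with local weights
-/

set_option linter.all false

namespace Vale.Agent.P329.H434

open Vale.Agent.P329 H962
open Filter

variable {α : Type} {p : ℕ}

/-- the histories near the text `x` -/
def Fx (x : ℕ → α) : Filter (List α) where
  sets := {S | ∃ J, ∀ X, H817.Near x J X → X ∈ S}
  univ_sets := ⟨0, fun _ _ => trivial⟩
  sets_of_superset := by
    rintro S T ⟨J, hJ⟩ hST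
    exact ⟨J, fun X hX => hST (hJ X hX)⟩
  inter_sets := by
    rintro S T ⟨J, hJ⟩ ⟨J', hJ'⟩
    exact ⟨max J J', fun X hX => ⟨hJ X (hX.mono (le_max_left _ _)), hJ' X (hX.mono (le_max_right _ _))⟩⟩

theorem mem_Fx {x : ℕ → α} {S : Set (List α)} : S ∈ Fx x ↔ ∃ J, ∀ X, H817.Near x J X → X ∈ S :=
  Iff.rfl

instance Fx_neBot (x : ℕ → α) : (Fx x).NeBot := by
  refine ⟨fun h => ?_⟩
  have h1 : (∅ : Set (List α)) ∈ Fx x := by rw [h]; exact Filter.mem_bot
  obtain ⟨J, hJ⟩ := mem_Fx.mp h1
  refine hJ ((List.range J).map x) ⟨by simp, fun i hi => ?_⟩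
  simp [hi]

theorem near_iff (x : ℕ → α) (J : ℕ) (X : List α) :
    Near (List.head? : List α → Option α) (fun i => some (x i)) J X ↔ H817.Near x J X := by
  unfold Near H817.Near
  refine and_congr Iff.rfl (forall_congr' fun i => forall_congr' fun hi => ?_)
  rw [List.head?_drop]

theorem Mn_univ : Mn (Set.univ : Set (ℕ → Unit)) where
  ne := ⟨fun _ => (), trivial⟩
  cl := fun _ _ => trivial
  inv := fun _ _ => trivial
  mn := fun _ _ _ _ _ => ⟨0, fun _ _ => rfl⟩

theorem TL_eq' (k F : List α → ZMod p) : H962.TL k F = H817.TL k F := by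
  rw [H320.TL_eq_TW, H817.TL_eq]

/-- functions of a window are local for every stage -/
theorem lc_win [Finite α] (hC : RowC) (w : List α → ZMod p) {k : List α → ZMod p}
    (hk : H817.Kl k) : Lc w k := by
  obtain ⟨c, hc⟩ := hk
  obtain ⟨h1, -, -, -, -, h6, -⟩ := hC α p w
  have h := h1 _ _ k _ (h6 c)
  refine Eq.mp (congrArg (Lc w) ?_) h
  funext X
  apply hc
  rw [List.take_take, Nat.min_self]

theorem lc_head [Finite α] (hC : RowC) (w : List α → ZMod p) :
    Lc w (List.head? : List α → Option α) := by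
  obtain ⟨h1, -, -, -, -, h6, -⟩ := hC α p w
  have h := h1 _ _ (List.head? : List α → Option α) _ (h6 1)
  refine Eq.mp (congrArg (Lc w) ?_) h
  funext X
  cases X <;> simp

theorem sys0 [Finite α] (hC : RowC) :
    Sys (w0 : List α → ZMod p) (List.head? : List α → Option α)
      (fun b => if b = none then 0 else 1) (fun b => b) where
  w_eq := by
    intro X
    cases X <;> simp [w0]
  l_eq := fun X => rfl
  lc := lc_head hC _

theorem zn0 [Finite α] (hp : Fact p.Prime) (hF1 : RowF1) (hF6 : RowF6) (x : ℕ → α) :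
    ∃ M, Zn (w0 : List α → ZMod p) (List.head? : List α → Option α) (Fx x) M := by
  obtain ⟨M, hM, hz, -⟩ := hF1 Unit (Option α) (fun _ => ()) (fun i => some (x i)) Set.univ Mn_univ
    (fun m _ J => ⟨0, fun i _ => rfl⟩)
  refine ⟨M, ⟨Fx_neBot x, hM, ⟨fun i => some (x i), fun J => ?_, hz⟩, ?_⟩⟩
  · exact mem_Fx.mpr ⟨J, fun X hX => (near_iff x J X).mpr hX⟩
  · intro ρs
    obtain ⟨J, hJ⟩ := (hF6 α p).2 ρs
    exact ⟨J, fun m _ X hX => hJ X hX.1⟩

theorem rr_of [Finite α] (hC : RowC) :
    ∀ (xs : List (ℕ → α)) (G : List α → ZMod p), RR w0 (xs.map Fx) G →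
      H817.RR H817.Cp H817.Kl xs G
  | [], G, h => h
  | x :: xs, G, ⟨U, hU, h⟩ => by
    obtain ⟨J, hJ⟩ := mem_Fx.mp hU
    refine ⟨J, fun k hk hs => ?_⟩
    have h2 := h k (lc_win hC _ hk) fun X hX => hJ X (hs X hX)
    rw [TL_eq'] at h2
    exact rr_of hC xs _ h2

theorem core_texts [Finite α] [Fact p.Prime] (hC : RowC) (hF1 : RowF1) (hF6 : RowF6) (hJ : RowJ)
    (k : List α → ZMod p) (hk : H817.Kl k) (xs : List (ℕ → α)) :
    H817.RR H817.Cp H817.Kl xs (H817.TL k fun _ => 1) := by
  classical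
  choose M hM using zn0 (α := α) (p := p) inferInstance hF1 hF6
  have hg : H817.Kl (fun X : List α => if X = [] then (0 : ZMod p) else k X) := by
    obtain ⟨c, hc⟩ := hk
    refine ⟨max c 1, fun X Y hXY => ?_⟩
    have h1 : ∀ n ≤ max c 1, X.take n = Y.take n := by
      intro n hn
      have := congrArg (List.take n) hXY
      rwa [List.take_take, List.take_take, Nat.min_eq_left hn] at this
    have h2 : (X = []) ↔ (Y = []) := by
      have h3 := h1 1 (le_max_right _ _)
      cases X <;> cases Y <;> simp at h3 ⊢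
    beta_reduce
    simp only [h2, hc X Y (h1 c (le_max_left _ _))]
  have h := hJ α (Option α) p w0 List.head? _ _ ((hF6 α p).1) (sys0 hC)
    (xs.map fun x => (Fx x, M x)) (by
      intro Z hZ
      obtain ⟨x, -, rfl⟩ := List.mem_map.mp hZ
      exact hM x)
    (fun X : List α => if X = [] then (0 : ZMod p) else k X) (lc_win hC _ hg) (by
      intro X hX
      unfold w0
      by_cases h0 : X = []
      · simp [h0] at hX
      · have := (Fact.out : p.Prime).one_lt
        haveI : Fact (1 < p) := ⟨this⟩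
        simp [h0])
  rw [List.map_map] at h
  have h' : RR w0 (xs.map Fx) (N (fun X : List α => if X = [] then (0 : ZMod p) else k X)) := h
  have h3 := rr_of hC xs _ h'
  refine Eq.mp (congrArg (H817.RR H817.Cp H817.Kl xs) ?_) h3
  funext X
  induction X with
  | nil => rfl
  | cons a X ih =>
    rw [N, H817.TL, ih]
    simp

/-- **Row K.** -/
theorem rowK (hC : RowC) (hF1 : RowF1) (hF6 : RowF6) (hJ : RowJ) : RowK := by
  intro α _ p hp k0 ks hk0 hks
  haveI : NeZero p := ⟨hp.out.ne_zero⟩
  have h := H817.core_of_texts (p := p) (α := α) (core_texts hC hF1 hF6 hJ) (ks.reverse ++ [k0])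
    (by
      intro k hk
      rw [List.mem_append, List.mem_reverse, List.mem_singleton] at hk
      rcases hk with hk | rfl
      · exact hks k hk
      · exact hk0)
  rw [H320.chW_concat, List.reverse_reverse] at h
  exact h

end Vale.Agent.P329.H434
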