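import Vale.Agent.P329.H434.RowI

/-!
# P329 / row G1 : tracking (second copy)
-/

set_option linter.all false

namespace Vale.Agent.P329.H434

open Vale.Agent.P329 Vale.Agent.P329.H962

variable {α B A : Type} {p : ℕ}

theorem nc_append (w : List α → ZMod p) (S T c : List α) :
    nc w (S ++ T) c = nc w S (T ++ c) + nc w T c := by
  induction S with
  | nil => simp [nc]
  | cons a S ih =>
    rw [List.cons_append, nc, nc, ih, List.append_assoc]
    omega

theorem near_getElem {β : List α → B} {lB : B → Option α} (hl : ∀ X, X.head? = lB (β X))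
    {z : ℕ → B} {J : ℕ} {X : List α} (hX : Near β z J X) {i : ℕ} (hi : i < J) :
    X[i]? = lB (z i) := by
  rw [← hX.2 i hi, ← hl, List.head?_drop]

theorem near_take {β : List α → B} {lB : B → Option α} (hl : ∀ X, X.head? = lB (β X))
    {z : ℕ → B} {J : ℕ} {X X' : List α} (hX : Near β z J X) (hX' : Near β z J X') {L : ℕ}
    (hL : L ≤ J) : X.take L = X'.take L := by
  apply List.ext_getElem?
  intro i
  by_cases hi : i < L
  · rw [List.getElem?_take_of_lt hi, List.getElem?_take_of_lt hi,
      near_getElem hl hX (hi.trans_le hL), near_getElem hl hX' (hi.trans_le hL)]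
  · rw [List.getElem?_take_eq_none (by omega), List.getElem?_take_eq_none (by omega)]

theorem many_cuts {w : List α → ZMod p} (hnil : w [] = 0) {β : List α → B} {M : Set (ℕ → B)}
    (inv : ∀ m ∈ M, sh m ∈ M) {Jc : ℕ}
    (hc : ∀ m ∈ M, ∀ X, Near β m Jc X → ∃ i < Jc, w (X.drop i) ≠ 0) :
    ∀ n : ℕ, ∃ J, ∀ m ∈ M, ∀ X, Near β m J X →
      ∃ i < J, w (X.drop i) ≠ 0 ∧ n ≤ nc w (X.take i) (X.drop i) := by
  intro n
  induction n with
  | zero =>
    refine ⟨Jc, fun m hm X hX => ?_⟩
    obtain ⟨i, hi, h⟩ := hc m hm X hX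
    exact ⟨i, hi, h, Nat.zero_le _⟩
  | succ n ih =>
    obtain ⟨Jn, hJn⟩ := ih
    refine ⟨Jn + (Jc + 1), fun m hm X hX => ?_⟩
    obtain ⟨i0, hi0, h0⟩ := hc m hm X (near_mono hX (by omega))
    have hX1 : Near β (fun i => m (i + (i0 + 1))) Jn (X.drop (i0 + 1)) :=
      near_drop (near_mono hX (by omega))
    obtain ⟨i, hi, h1, h2⟩ := hJn _ (mem_shift inv hm (i0 + 1)) _ hX1
    rw [List.drop_drop] at h1 h2
    refine ⟨i0 + 1 + i, by omega, h1, ?_⟩
    have h3 : X.take (i0 + 1 + i) = X.take (i0 + 1) ++ (X.drop (i0 + 1)).take i := by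
      rw [List.take_add]
    have h4 : (X.drop (i0 + 1)).take i ++ X.drop (i0 + 1 + i) = X.drop (i0 + 1) := by
      rw [show X.drop (i0 + 1 + i) = (X.drop (i0 + 1)).drop i from (List.drop_drop ..).symm,
        List.take_append_drop]
    rw [h3, nc_append, h4]
    have h5 : 1 ≤ nc w (X.take (i0 + 1)) (X.drop (i0 + 1)) := by
      cases hd : X.drop i0 with
      | nil => rw [hd] at h0; exact absurd hnil h0
      | cons a T =>
        have h6 : X.drop (i0 + 1) = T := by
          rw [← List.drop_drop, hd]; rfl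
        have h7 : X.take (i0 + 1) = X.take i0 ++ [a] := by
          rw [List.take_add, hd]; rfl
        rw [h6, h7, nc_append]
        have h8 : nc w [a] T = 1 := by
          rw [nc, nc, List.nil_append, if_neg]
          rw [← hd]; exact h0
        omega
    omega

theorem rowG1 : RowG1 := by
  classical
  intro α B A _ p _ w β wB lB M hS hSys inv cov G hG
  obtain ⟨Jc, hJc⟩ := cov []
  obtain ⟨-, -, n, hn⟩ := hG
  obtain ⟨J, hJ⟩ := many_cuts hS.nil inv (w := w) (β := β) hJc n
  have key : ∀ m ∈ M, ∀ X X', Near β m J X → Near β m J X' → G X = G X' := by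
    intro m hm X X' hX hX'
    obtain ⟨i, hi, h1, h2⟩ := hJ m hm X hX
    have h3 : w (X'.drop i) ≠ 0 := by
      rw [hSys.w_eq, hX'.2 i hi, ← hX.2 i hi, ← hSys.w_eq]
      exact h1
    have h4 : X.take i = X'.take i := near_take hSys.l_eq hX hX' hi.le
    have h5 := hn (X.drop i) (X'.drop i) (X.take i) h1 h3 h2
    rw [List.take_append_drop] at h5
    rw [h5, h4, List.take_append_drop]
  let Fw : (Fin J → B) → A := fun u =>
    if h : ∃ X : List α, J ≤ X.length ∧ ∀ i : Fin J, β (X.drop i) = u i then G h.choose else G []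
  refine ⟨fun z => Fw fun i => z i, J, ?_, ?_⟩
  · intro z z' h
    change Fw _ = Fw _
    congr 1
    funext i
    exact h i i.2
  · intro m hm X hX
    have h : ∃ X : List α, J ≤ X.length ∧ ∀ i : Fin J, β (X.drop i) = (fun i : Fin J => m i) i :=
      ⟨X, hX.1, fun i => hX.2 i i.2⟩
    have h1 : (Fw fun i => m i) = G h.choose := dif_pos h
    change G X = Fw fun i => m i
    rw [h1]
    exact key m hm X h.choose hX ⟨h.choose_spec.1, fun i hi => h.choose_spec.2 ⟨i, hi⟩⟩

end Vale.Agent.P329.H434
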