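import Vale.Agent.P329.H962.Rows

/-!
# P329 / row I : flattening
-/

set_option linter.all false

namespace Vale.Agent.P329.H434

open Vale.Agent.P329 Vale.Agent.P329.H962

variable {α B : Type} {p : ℕ}

theorem near_mono {β : List α → B} {z : ℕ → B} {J J' : ℕ} {X : List α} (h : Near β z J X)
    (hJ : J' ≤ J) : Near β z J' X :=
  ⟨hJ.trans h.1, fun i hi => h.2 i (hi.trans_le hJ)⟩

theorem near_drop {β : List α → B} {z : ℕ → B} {J j : ℕ} {X : List α} (h : Near β z (J + j) X) :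
    Near β (fun i => z (i + j)) J (X.drop j) := by
  refine ⟨?_, fun i hi => ?_⟩
  · have := h.1
    rw [List.length_drop]; omega
  · rw [List.drop_drop, Nat.add_comm j i]
    exact h.2 (i + j) (by omega)

theorem near_tail {β : List α → B} {z : ℕ → B} {J : ℕ} {X : List α} (h : Near β z (J + 1) X) :
    Near β (sh z) J X.tail := by
  have h1 := near_drop (j := 1) h
  rw [List.drop_one] at h1
  exact h1

theorem mem_shift {M : Set (ℕ → B)} (inv : ∀ m ∈ M, sh m ∈ M) {m : ℕ → B} (hm : m ∈ M) (j : ℕ) :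
    (fun i => m (i + j)) ∈ M := by
  induction j with
  | zero => exact hm
  | succ j ih =>
    have h1 := inv _ ih
    have h2 : sh (fun i => m (i + j)) = fun i => m (i + (j + 1)) := by
      funext i
      change m (i + 1 + j) = m (i + (j + 1))
      congr 1; omega
    rwa [h2] at h1

theorem rgG_zero {w f : List α → ZMod p} : ∀ (i : ℕ) (Y : List α), w (Y.drop i) ≠ 0 →
    (∀ j < i, f (Y.drop j) = 0) → rgG w f Y = 0 := by
  intro i
  induction i with
  | zero =>
    intro Y hY _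
    cases Y with
    | nil => rfl
    | cons b Z =>
      rw [List.drop_zero] at hY
      rw [rgG, if_neg hY]
  | succ i ih =>
    intro Y hY hf
    cases Y with
    | nil => rfl
    | cons b Z =>
      rw [rgG]
      by_cases h : w (b :: Z) = 0
      · rw [if_pos h, ih Z (by simpa using hY) fun j hj => by
          have := hf (j + 1) (by omega)
          simpa using this]
        have := hf 0 (by omega)
        rw [List.drop_zero] at this
        rw [this, add_zero]
      · rw [if_neg h]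

theorem fl_rgg {w f : List α → ZMod p} {β : List α → B} {M : Set (ℕ → B)} (hf : Fl f β M)
    (inv : ∀ m ∈ M, sh m ∈ M)
    (cov : ∃ J, ∀ m ∈ M, ∀ X, Near β m J X → ∃ i < J, w (X.drop i) ≠ 0) :
    Fl (rgg w f) β M := by
  obtain ⟨Jf, hf⟩ := hf
  obtain ⟨Jc, hc⟩ := cov
  refine ⟨Jf + Jc + 1, fun m hm X hX => ?_⟩
  cases X with
  | nil =>
    have := hX.1
    simp at this
  | cons a Y =>
    rw [rgg]
    by_cases h : w (a :: Y) = 0
    · rw [if_pos h]
    · rw [if_neg h]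
      have h1 : f (a :: Y) = 0 := hf m hm _ (near_mono hX (by omega))
      have hY : Near β (sh m) (Jf + Jc) Y := near_tail hX
      have hm1 : sh m ∈ M := inv m hm
      obtain ⟨i, hi, hwi⟩ := hc (sh m) hm1 Y (near_mono hY (by omega))
      have h2 : rgG w f Y = 0 := by
        refine rgG_zero i Y hwi fun j hj => ?_
        refine hf (fun i => sh m (i + j)) (mem_shift inv hm1 j) _ ?_
        exact near_drop (near_mono hY (by omega))
      rw [h1, h2, add_zero]

theorem N_add (f g : List α → ZMod p) (X : List α) :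
    N (fun X => f X + g X) X = N f X + N g X := by
  induction X with
  | nil => simp [N]
  | cons a X ih => rw [N, N, N, ih]; ring

theorem N_diff (Ψ : List α → ZMod p) (X : List α) :
    N (fun X => Ψ X - Ψ X.tail) X = Ψ X - Ψ [] := by
  induction X with
  | nil => simp [N]
  | cons a X ih => rw [N, ih, List.tail_cons]; ring

theorem exists_bound {ι : Type} (Zs : List ι) (P : ι → ℕ → Prop)
    (hmono : ∀ Z, ∀ L L', L ≤ L' → P Z L → P Z L') (h : ∀ Z ∈ Zs, ∃ L, P Z L) :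
    ∃ L, ∀ Z ∈ Zs, P Z L := by
  induction Zs with
  | nil => exact ⟨0, fun Z hZ => by simp at hZ⟩
  | cons a Zs ih =>
    obtain ⟨L, hL⟩ := ih fun Z hZ => h Z (List.mem_cons_of_mem _ hZ)
    obtain ⟨L', hL'⟩ := h a List.mem_cons_self
    refine ⟨max L L', fun Z hZ => ?_⟩
    rcases List.mem_cons.mp hZ with rfl | hZ
    · exact hmono _ _ _ (le_max_right _ _) hL'
    · exact hmono _ _ _ (le_max_left _ _) (hL Z hZ)

theorem rowI (hC : RowC) (hE : RowE) (hF3 : RowF3) : RowI := by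
  classical
  intro α B _ _ p _ w β wB lB hS hSys Zs hZs g hg hgs Z hZ τ hRep hCob
  obtain ⟨hmap, hpair, -, htail, -, -, -, -, -, hwin⟩ := hC α p w
  obtain ⟨Jτ, hJτ, hRep⟩ := hRep
  obtain ⟨ψ, ⟨Jψ, hψ⟩, hcob⟩ := hCob
  have hZn := hZs Z hZ
  obtain ⟨Jc, hJc⟩ := hZn.cov []
  obtain ⟨L3, hL3⟩ := exists_bound Zs (fun Z' L => Z'.2 ≠ Z.2 →
      ∀ m ∈ Z.2, ∀ m' ∈ Z'.2, ∃ i < L, m i ≠ m' i)
    (fun Z' L L' hL h hne m hm m' hm' => by
      obtain ⟨i, hi, h1⟩ := h hne m hm m' hm'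
      exact ⟨i, hi.trans_le hL, h1⟩)
    (fun Z' hZ' => by
      by_cases hne : Z'.2 = Z.2
      · exact ⟨0, fun h => absurd hne h⟩
      · obtain ⟨L, hL⟩ := hF3 B Z.2 Z'.2 hZn.mn (hZs Z' hZ').mn (Ne.symm hne)
        exact ⟨L, fun _ => hL⟩)
  let L := max L3 (max Jψ Jc)
  have hLL3 : L3 ≤ L := le_max_left _ _
  have hLψ : Jψ ≤ L := (le_max_left _ _).trans (le_max_right _ _)
  have hLc : Jc ≤ L := (le_max_right _ _).trans (le_max_right _ _)
  let Ft : (ℕ → B) → ZMod p := fun z => if ∃ m ∈ Z.2, ∀ i < L, m i = z i then ψ z else 0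
  have hFt : Wn L Ft := by
    intro z z' h
    have h1 : (∃ m ∈ Z.2, ∀ i < L, m i = z i) ↔ ∃ m ∈ Z.2, ∀ i < L, m i = z' i := by
      constructor
      · rintro ⟨m, hm, h2⟩
        exact ⟨m, hm, fun i hi => (h2 i hi).trans (h i hi)⟩
      · rintro ⟨m, hm, h2⟩
        exact ⟨m, hm, fun i hi => (h2 i hi).trans (h i hi).symm⟩
    have h2 : ψ z = ψ z' := hψ z z' fun i hi => h i (hi.trans_le hLψ)
    change (if ∃ m ∈ Z.2, ∀ i < L, m i = z i then ψ z else 0) =
      if ∃ m ∈ Z.2, ∀ i < L, m i = z' i then ψ z' else 0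
    rw [h2]
    exact if_congr h1 rfl rfl
  let Ψ : List α → ZMod p := fun X => if L ≤ X.length then Ft (fun i => β (X.drop i)) else 0
  have hΨ : Lc w Ψ := hwin hS B (ZMod p) β hSys.lc L Ft 0 hFt
  have hΨt : Lc w fun X => Ψ X.tail := htail hS (ZMod p) Ψ hΨ
  -- values
  have hΨM : ∀ m ∈ Z.2, ∀ X, Near β m L X → Ψ X = ψ m := by
    intro m hm X hX
    change (if L ≤ X.length then Ft (fun i => β (X.drop i)) else 0) = ψ m
    rw [if_pos hX.1]
    change (if ∃ m ∈ Z.2, ∀ i < L, m i = β (X.drop i) then ψ (fun i => β (X.drop i)) else 0) = ψ m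
    rw [if_pos ⟨m, hm, fun i hi => (hX.2 i hi).symm⟩]
    exact hψ _ _ fun i hi => hX.2 i (hi.trans_le hLψ)
  have hΨ0 : ∀ Z' ∈ Zs, Z'.2 ≠ Z.2 → ∀ m ∈ Z'.2, ∀ X, Near β m L X → Ψ X = 0 := by
    intro Z' hZ' hne m hm X hX
    change (if L ≤ X.length then Ft (fun i => β (X.drop i)) else 0) = 0
    rw [if_pos hX.1]
    change (if ∃ m ∈ Z.2, ∀ i < L, m i = β (X.drop i) then ψ (fun i => β (X.drop i)) else 0) = 0
    rw [if_neg]
    rintro ⟨m1, hm1, h1⟩
    obtain ⟨i, hi, h2⟩ := hL3 Z' hZ' hne m1 hm1 m hm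
    exact h2 ((h1 i (hi.trans_le hLL3)).trans (hX.2 i (hi.trans_le hLL3)))
  have hΨs : ∀ X, Ψ X ≠ 0 → ∃ i < Jc, w (X.drop i) ≠ 0 := by
    intro X hX
    by_cases h1 : L ≤ X.length
    · have h2 : Ψ X = Ft (fun i => β (X.drop i)) := if_pos h1
      rw [h2] at hX
      by_cases h3 : ∃ m ∈ Z.2, ∀ i < L, m i = β (X.drop i)
      · obtain ⟨m, hm, h3⟩ := h3
        exact hJc m hm X ⟨hLc.trans h1, fun i hi => (h3 i (hi.trans_le hLc)).symm⟩
      · exact absurd (if_neg h3) hX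
    · exact absurd (if_neg h1) hX
  let f : List α → ZMod p := fun X => g X - (Ψ X - Ψ X.tail)
  have hf : Lc w f :=
    hmap (ZMod p × (ZMod p × ZMod p)) (ZMod p) (fun t => t.1 - (t.2.1 - t.2.2)) _
      (hpair _ _ _ _ hg (hpair _ _ _ _ hΨ hΨt))
  have hfs : ∃ J, ∀ X, f X ≠ 0 → ∃ i ≤ J, w (X.drop i) ≠ 0 := by
    refine ⟨Jc, fun X hX => ?_⟩
    by_cases h1 : g X = 0
    · by_cases h2 : Ψ X = 0
      · have h3 : Ψ X.tail ≠ 0 := by
          intro h3
          apply hX
          change g X - (Ψ X - Ψ X.tail) = 0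
          rw [h1, h2, h3]; ring
        obtain ⟨i, hi, h4⟩ := hΨs _ h3
        refine ⟨i + 1, by omega, ?_⟩
        rw [← List.drop_one, List.drop_drop, Nat.add_comm 1 i] at h4
        exact h4
      · obtain ⟨i, hi, h4⟩ := hΨs _ h2
        exact ⟨i, by omega, h4⟩
    · exact ⟨0, by omega, hgs X h1⟩
  obtain ⟨hE1, hE2⟩ := hE α p w f
  obtain ⟨hG1, hG2⟩ := hE2 hS hf hfs
  have hfl : ∀ Z' ∈ Zs, Fl f β Z'.2 → Fl (rgg w f) β Z'.2 := by
    intro Z' hZ' h1
    refine fl_rgg h1 (hZs Z' hZ').mn.inv ?_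
    exact (hZs Z' hZ').cov []
  refine ⟨rgg w f, fun X => rgG w f X + (Ψ X - Ψ []), hG2, ?_, ?_, ?_, ?_, ?_⟩
  · intro X hX
    cases X with
    | nil => exact absurd rfl hX
    | cons a X =>
      intro h0
      apply hX
      rw [rgg, if_pos h0]
  · exact hmap (ZMod p × ZMod p) (ZMod p) (fun t => t.1 + (t.2 - Ψ [])) _ (hpair _ _ _ _ hG1 hΨ)
  · intro X
    have h1 : N g X = N f X + N (fun X => Ψ X - Ψ X.tail) X := by
      rw [← N_add]
      congr 1
      funext X
      change g X = g X - (Ψ X - Ψ X.tail) + (Ψ X - Ψ X.tail)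
      ring
    rw [h1, hE1, N_diff]
    ring
  · apply hfl Z hZ
    refine ⟨max Jτ (L + 1), fun m hm X hX => ?_⟩
    have h1 : g X = τ m := hRep m hm X (near_mono hX (le_max_left _ _))
    have hX1 : Near β m (L + 1) X := near_mono hX (le_max_right _ _)
    have h2 : Ψ X = ψ m := hΨM m hm X (near_mono hX1 (Nat.le_succ L))
    have h3 : Ψ X.tail = ψ (sh m) := hΨM (sh m) (hZn.mn.inv m hm) _ (near_tail hX1)
    change g X - (Ψ X - Ψ X.tail) = 0
    rw [h1, h2, h3, hcob m hm]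
    ring
  · intro Z' hZ' hFl
    by_cases hne : Z'.2 = Z.2
    · rw [hne]
      apply hfl Z hZ
      refine ⟨max Jτ (L + 1), fun m hm X hX => ?_⟩
      have h1 : g X = τ m := hRep m hm X (near_mono hX (le_max_left _ _))
      have hX1 : Near β m (L + 1) X := near_mono hX (le_max_right _ _)
      have h2 : Ψ X = ψ m := hΨM m hm X (near_mono hX1 (Nat.le_succ L))
      have h3 : Ψ X.tail = ψ (sh m) := hΨM (sh m) (hZn.mn.inv m hm) _ (near_tail hX1)
      change g X - (Ψ X - Ψ X.tail) = 0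
      rw [h1, h2, h3, hcob m hm]
      ring
    · apply hfl Z' hZ'
      obtain ⟨Jg, hJg⟩ := hFl
      refine ⟨max Jg (L + 1), fun m hm X hX => ?_⟩
      have hX1 : Near β m (L + 1) X := near_mono hX (le_max_right _ _)
      have h1 : g X = 0 := hJg m hm X (near_mono hX (le_max_left _ _))
      have h2 : Ψ X = 0 := hΨ0 Z' hZ' hne m hm X (near_mono hX1 (Nat.le_succ L))
      have h3 : Ψ X.tail = 0 := hΨ0 Z' hZ' hne (sh m) ((hZs Z' hZ').mn.inv m hm) _ (near_tail hX1)
      change g X - (Ψ X - Ψ X.tail) = 0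
      rw [h1, h2, h3]
      ring

end Vale.Agent.P329.H434
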