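import Vale.Agent.P329.H434.Nil
import Vale.Agent.P329.H320.Alg
import Mathlib.GroupTheory.RegularWreathProduct

/-!
# P329 / end row: clocks are free (wreath product with a cyclic group), bridge from `Core`
-/

set_option linter.all false

namespace Vale.Agent.P329.H434

open Vale.Agent.P329

/-- a clock modulo `n` is absorbed by the wreath product with the cyclic group of order `n` -/
theorem CtxK.clock {n : ℕ} {G : Type} [Group G]
    (h : CtxK 1 (RegularWreathProduct G (Multiplicative (ZMod n)))) : CtxK n G := by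
  classical
  intro α _ c χ hχ S
  let Ψ : ZMod n → List α → α → G := fun r Z b =>
    if hx : ∃ X : List α, (X.length : ZMod n) = r ∧ X.take c = Z then χ hx.choose b else 1
  have hΨ : ∀ (X : List α) (b : α), Ψ (X.length : ZMod n) (X.take c) b = χ X b := by
    intro X b
    have hx : ∃ Y : List α, (Y.length : ZMod n) = (X.length : ZMod n) ∧ Y.take c = X.take c :=
      ⟨X, rfl, rfl⟩
    have h1 : Ψ (X.length : ZMod n) (X.take c) b = χ hx.choose b := dif_pos hx
    rw [h1]
    exact hχ _ _ b ((ZMod.natCast_eq_natCast_iff' _ _ _).mp hx.choose_spec.1) hx.choose_spec.2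
  let χ' : List α → α → RegularWreathProduct G (Multiplicative (ZMod n)) := fun X b =>
    ⟨fun x => Ψ (Multiplicative.toAdd x) (X.take c) b, Multiplicative.ofAdd (-1)⟩
  have h1 := h α c χ' (by
    intro X Y b _ h2
    change (⟨_, _⟩ : RegularWreathProduct G (Multiplicative (ZMod n))) = ⟨_, _⟩
    rw [h2]) {t | t.left 1 ∈ S}
  have h2 : ∀ X : List α, (H157.hp χ' X).right = Multiplicative.ofAdd (-(X.length : ZMod n)) ∧
      ∀ x, (H157.hp χ' X).left x =
        H157.hp (fun Y b => Ψ (Multiplicative.toAdd x + (Y.length : ZMod n)) (Y.take c) b) X := by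
    intro X
    induction X with
    | nil =>
      refine ⟨?_, fun x => rfl⟩
      change (1 : Multiplicative (ZMod n)) = _
      simp
    | cons b X ih =>
      obtain ⟨ih1, ih2⟩ := ih
      refine ⟨?_, fun x => ?_⟩
      · rw [H157.hp, RegularWreathProduct.mul_right, ih1]
        change Multiplicative.ofAdd _ * Multiplicative.ofAdd (-1) = _
        rw [← ofAdd_add, List.length_cons]
        push_cast
        congr 1
        ring
      · rw [H157.hp, RegularWreathProduct.mul_left, Pi.mul_apply, ih2, ih1, H157.hp]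
        congr 1
        change Ψ (Multiplicative.toAdd ((Multiplicative.ofAdd (-(X.length : ZMod n)))⁻¹ * x))
          (X.take c) b = _
        congr 1
        rw [toAdd_mul, toAdd_inv, toAdd_ofAdd]
        ring
  have h3 : ∀ X : List α, (H157.hp χ' X).left 1 = H157.hp χ X := by
    intro X
    rw [(h2 X).2]
    congr 1
    funext Y b
    rw [toAdd_one, zero_add]
    exact hΨ Y b
  refine Eq.mp (congrArg (SH 1) ?_) h1
  ext w
  rw [Set.mem_ofPred_eq, Set.mem_ofPred_eq, Set.mem_ofPred_eq, h3]

theorem wreath_p {p : ℕ} [Fact p.Prime] {G Q : Type} [Group G] [Finite G] [Group Q] [Finite Q]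
    (hG : IsPGroup p G) (hQ : IsPGroup p Q) : IsPGroup p (RegularWreathProduct G Q) := by
  obtain ⟨a, ha⟩ := IsPGroup.iff_card.mp hG
  obtain ⟨b, hb⟩ := IsPGroup.iff_card.mp hQ
  refine IsPGroup.iff_card.mpr ⟨a * p ^ b + b, ?_⟩
  rw [RegularWreathProduct.card, ha, hb, ← pow_mul, ← pow_add]

/-- **clocks modulo `p ^ l` are free** -/
theorem CtxK.clock_p {p : ℕ} [Fact p.Prime]
    (h : ∀ (H : Type) [Group H] [Finite H], IsPGroup p H → CtxK 1 H) {G : Type} [Group G]
    [Finite G] (hG : IsPGroup p G) (l : ℕ) : CtxK (p ^ l) G := by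
  have hp : p.Prime := Fact.out
  have hne : NeZero (p ^ l) := ⟨pow_ne_zero l hp.ne_zero⟩
  apply CtxK.clock
  apply h
  apply wreath_p hG
  refine IsPGroup.iff_card.mpr ⟨l, ?_⟩
  rw [Nat.card_congr (Multiplicative.toAdd : Multiplicative (ZMod (p ^ l)) ≃ ZMod (p ^ l)),
    Nat.card_zmod]

/-- locally determined properties from context products in a group of order `p` -/
theorem LocK.of_ctx {n p : ℕ} [Fact p.Prime] (h : CtxK n (Multiplicative (ZMod p))) : LocK n := by
  classical
  intro α _ c q hq
  let v : List α → ZMod p := fun X => if q X then 1 else 0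
  have hv : ∀ X Y : List α, X.length % n = Y.length % n → X.take c = Y.take c →
      v X = v Y := fun X Y h1 h2 => if_congr (hq X Y h1 h2) rfl rfl
  have h1 := h α c (fun X b => Multiplicative.ofAdd (v (b :: X) - v X)) (by
    intro X Y b h1 h2
    have h3 : (b :: X).length % n = (b :: Y).length % n := by
      rw [List.length_cons, List.length_cons]
      exact Nat.ModEq.add_right 1 h1
    have h4 : (b :: X).take c = (b :: Y).take c := by
      cases c with
      | zero => rfl
      | succ c =>
        rw [List.take_succ_cons, List.take_succ_cons]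
        congr 1
        have := congrArg (List.take c) h2
        rwa [List.take_take, List.take_take, Nat.min_eq_left (Nat.le_succ c)] at this
    rw [hv _ _ h1 h2, hv _ _ h3 h4]) {Multiplicative.ofAdd (1 - v [])}
  refine Eq.mp (congrArg (SH 1) ?_) h1
  have h2 : ∀ X : List α, H157.hp (fun X b => Multiplicative.ofAdd (v (b :: X) - v X)) X =
      Multiplicative.ofAdd (v X - v []) := by
    intro X
    induction X with
    | nil => rw [H157.hp, sub_self, ofAdd_zero]
    | cons b X ih =>
      rw [H157.hp, ih, ← ofAdd_add]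
      congr 1
      ring
  ext w
  rw [Set.mem_ofPred_eq, Set.mem_ofPred_eq, h2, Set.mem_singleton_iff,
    Multiplicative.ofAdd.injective.eq_iff, sub_left_inj]
  change (if q w.reverse then (1 : ZMod p) else 0) = 1 ↔ q w.reverse
  by_cases h : q w.reverse
  · rw [if_pos h]; exact ⟨fun _ => h, fun _ => rfl⟩
  · rw [if_neg h]
    exact ⟨fun h' => absurd h' zero_ne_one, fun h' => absurd h' h⟩

theorem hprod_eq {α G : Type} [Group G] (ψ : List α → α → G) (X : List α) :
    H320.hprod ψ X = H157.hp ψ X := by
  induction X with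
  | nil => rfl
  | cons x X ih => rw [H320.hprod, H157.hp, ih]

/-- the bridge from `H320.Core` (memory weights, no clocks) -/
theorem CtxK.of_core {p : ℕ} [Fact p.Prime]
    (h : ∀ (α : Type) [Finite α] (c : ℕ), H320.Core p α c) (G : Type) [Group G] [Finite G]
    (hG : IsPGroup p G) : CtxK 1 G := by
  intro α _ c χ hχ S
  have h1 : H320.HK α c G := H320.HK.of_core (h α (c + 1)) hG
  have h2 : Kn fun w : List α => H320.hprod χ w.reverse :=
    h1 χ fun X Y x h3 => hχ X Y x (by rw [Nat.mod_one, Nat.mod_one]) h3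
  refine Eq.mp (congrArg (SH 1) ?_) (kn_set h2 S)
  ext w
  rw [Set.mem_ofPred_eq, Set.mem_ofPred_eq, hprod_eq]

/-- context products in finite nilpotent groups -/
theorem CtxK.nil_of_core (h : ∀ (p : ℕ), p.Prime → ∀ (α : Type) [Finite α] (c : ℕ),
    H320.Core p α c) {G : Type} [Group G] [Finite G] (hG : Group.IsNilpotent G) : CtxK 1 G := by
  have hfin : ∀ p : ℕ, Finite (Sylow p G) := fun p => inferInstance
  obtain ⟨e⟩ := (Group.isNilpotent_of_finite_tfae (G := G)).out 0 4 |>.mp hG
  refine CtxK.equiv (CtxK.pi fun p => CtxK.pi fun P => ?_) e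
  have hp : (p : ℕ).Prime := Nat.prime_of_mem_primeFactors p.2
  have hf : Fact (p : ℕ).Prime := ⟨hp⟩
  exact CtxK.of_core (h p hp) (P : Subgroup G) P.isPGroup'

end Vale.Agent.P329.H434
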