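import Mathlib.Data.ZMod.Defs
import Mathlib.Algebra.BigOperators.Group.List.Defs

namespace Vale.Agent.P329

/-- Product over all positions `i` of the word `w` of the values `ψ i u a`, where `i` is taken
modulo `n`, `u` is the word of the `c` letters before the position (all letters before the
position, if there are fewer than `c`), and `a` is the letter at the position. -/
def ctxProdN {α G : Type} [Monoid G] (n c : ℕ) (ψ : ZMod n → List α → α → G)
    (w : List α) : G :=
  (w.zipIdx.map fun x => ψ (x.2 : ZMod n) ((w.take x.2).drop (x.2 - c)) x.1).prod

end Vale.Agent.P329
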