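import Vale.Agent.P329.H157.Ctx
import Mathlib.Algebra.Group.ForwardDiff
import Mathlib.Algebra.Field.ZMod
import Mathlib.Data.Nat.Choose.Dvd

/-!
# P329 / end row: from chain functions over the letters to finite `p`-groups (any prime `p`)
-/

set_option linter.all false

namespace Vale.Agent.P329.H434

open Vale.Agent.P329

section defs

variable {p : ℕ} {B : Type}

/-- `h` is determined by the length modulo `p ^ l` and the last `c` letters (newest letter first) -/
def Loc (p l c : ℕ) {B : Type} (h : List B → ZMod p) : Prop :=
  ∀ X Y : List B, X.length % p ^ l = Y.length % p ^ l → X.take c = Y.take c → h X = h Y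

/-- chain operator: the sum over all letters (newest first) of `h` (history with the letter) times
`F` (history before the letter) -/
def TL {p : ℕ} {B : Type} (h F : List B → ZMod p) : List B → ZMod p
  | [] => 0
  | b :: X => TL h F X + h (b :: X) * F X

/-- chain functions -/
inductive CF (p l c : ℕ) {B : Type} : (List B → ZMod p) → Prop
  | const (a : ZMod p) : CF p l c fun _ => a
  | add (F G : List B → ZMod p) : CF p l c F → CF p l c G → CF p l c fun X => F X + G X
  | T (h F : List B → ZMod p) : Loc p l c h → CF p l c F → CF p l c (TL h F)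

/-- the end statement of the core -/
def AllChains (p : ℕ) : Prop :=
  ∀ (α : Type) [Finite α] (l c : ℕ) (F : List α → ZMod p), CF p l c F →
    ∀ a : ZMod p, SH 1 {w : List α | F w.reverse = a}

/-- the end statement of the core, letter weights only -/
def AllChains0 (p : ℕ) : Prop :=
  ∀ (α : Type) [Finite α] (F : List α → ZMod p), CF p 0 1 F →
    ∀ a : ZMod p, SH 1 {w : List α | F w.reverse = a}

theorem AllChains.zero (h : AllChains p) : AllChains0 p := fun α _ F hF => h α 0 1 F hF

theorem TL_add_right (h F G : List B → ZMod p) (X : List B) :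
    TL h (fun X => F X + G X) X = TL h F X + TL h G X := by
  induction X with
  | nil => simp [TL]
  | cons b X ih => rw [TL, TL, TL, ih]; ring

theorem TL_congr {h F G : List B → ZMod p} (e : ∀ X, F X = G X) : TL h F = TL h G := by
  rw [show F = G from funext e]

theorem CF.cast {l c : ℕ} {F G : List B → ZMod p} (h : CF p l c F) (e : ∀ X, F X = G X) :
    CF p l c G := by
  rwa [show G = F from (funext e).symm]

theorem CF.sum {l c : ℕ} {ι : Type} (S : Finset ι) (Fs : ι → List B → ZMod p)
    (h : ∀ i ∈ S, CF p l c (Fs i)) : CF p l c fun X => ∑ i ∈ S, Fs i X := by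
  classical
  induction S using Finset.induction_on with
  | empty => exact (CF.const 0).cast fun X => by simp
  | insert a S ha ih =>
    refine (CF.add _ _ (h a (Finset.mem_insert_self _ _))
      (ih fun i hi => h i (Finset.mem_insert_of_mem hi))).cast fun X => ?_
    rw [Finset.sum_insert ha]

end defs

section fil

variable {p : ℕ} {G : Type} [Group G]

/-- The filtration of the functions on `G` by the augmentation ideal. -/
def Fil (p : ℕ) {G : Type} [Group G] : ℕ → (G → ZMod p) → Prop
  | 0, v => v = fun _ => 0
  | k + 1, v => ∀ g : G, Fil p k fun x => v (x * g) - v x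

theorem Fil.comp {H : Type} [Group H] (q : G →* H) :
    ∀ (k : ℕ) (w : H → ZMod p), Fil p k w → Fil p k fun x : G => w (q x) := by
  intro k
  induction k with
  | zero =>
    intro w hw
    rw [Fil] at hw
    subst hw
    rfl
  | succ k ih =>
    intro w hw g
    have := ih _ (hw (q g))
    refine Eq.mp (congrArg (Fil p k) ?_) this
    funext x
    simp [map_mul]

theorem Fil.central {z : G} (hz : ∀ g : G, g * z = z * g) {k' : ℕ}
    (h : ∀ v : G → ZMod p, (∀ x, v (x * z) = v x) → Fil p k' v) :
    ∀ (N : ℕ) (v : G → ZMod p), Fil p N (fun x => v (x * z) - v x) → Fil p (N + k') v := by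
  intro N
  induction N with
  | zero =>
    intro v hv
    rw [Fil] at hv
    rw [Nat.zero_add]
    apply h
    intro x
    exact sub_eq_zero.mp (congrFun hv x)
  | succ N ih =>
    intro v hv
    rw [Nat.succ_add]
    intro g
    apply ih
    refine Eq.mp (congrArg (Fil p N) ?_) (hv g)
    funext x
    change v (x * g * z) - v (x * g) - (v (x * z) - v x) =
      v (x * z * g) - v (x * z) - (v (x * g) - v x)
    rw [mul_assoc x g z, hz g, ← mul_assoc]
    ring

/-- the difference operator of `z` -/
def dz (z : G) (v : G → ZMod p) : G → ZMod p := fun x => v (x * z) - v x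

open scoped fwdDiff in
theorem dz_iter (z : G) (v : G → ZMod p) (x : G) : ∀ (n m : ℕ),
    (dz z)^[n] v (x * z ^ m) = (fwdDiff (1 : ℕ))^[n] (fun j : ℕ => v (x * z ^ j)) m := by
  intro n
  induction n with
  | zero => intro m; rfl
  | succ n ih =>
    intro m
    rw [Function.iterate_succ_apply', Function.iterate_succ_apply', fwdDiff, dz]
    rw [← ih, ← ih, pow_succ, ← mul_assoc]

theorem dz_p [Fact p.Prime] {z : G} (hz : z ^ p = 1) (v : G → ZMod p) :
    (dz z)^[p] v = fun _ => 0 := by
  have hp : p.Prime := Fact.out
  funext x
  have h1 := dz_iter z v x p 0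
  rw [pow_zero, mul_one] at h1
  rw [h1, fwdDiff_iter_eq_sum_shift]
  have hp1 : p = (p - 1) + 1 := (Nat.succ_pred_eq_of_pos hp.pos).symm
  rw [Finset.sum_range_succ]
  have h2 : ∑ k ∈ Finset.range p, ((-1 : ℤ) ^ (p - k) * (p.choose k : ℤ)) •
      (fun j : ℕ => v (x * z ^ j)) (0 + k • 1) = - v x := by
    rw [Finset.sum_eq_single 0]
    · simp only [Nat.sub_zero, Nat.choose_zero_right, zero_smul, add_zero, pow_zero, mul_one,
        Nat.cast_one]
      rw [zsmul_eq_mul]
      push_cast
      have h3 : (-1 : ZMod p) ^ p = -1 := by
        rcases hp.eq_two_or_odd' with h | h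
        · have h4 : (1 : ZMod p) = -1 := by
            have h5 : ((2 : ℕ) : ZMod p) = 0 := by
              have h6 := ZMod.natCast_self p
              conv_lhs at h6 => arg 1; rw [h]
              exact h6
            push_cast at h5
            linear_combination h5
          rw [← h4, one_pow]
        · exact h.neg_one_pow
      rw [h3]; ring
    · intro k hk hk0
      rw [Finset.mem_range] at hk
      have h3 : ((p.choose k : ℤ) : ZMod p) = 0 := by
        push_cast
        rw [ZMod.natCast_eq_zero_iff]
        exact hp.dvd_choose_self hk0 hk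
      rw [zsmul_eq_mul]
      push_cast at h3 ⊢
      rw [h3]; ring
    · intro h; exact absurd (Finset.mem_range.mpr hp.pos) h
  rw [h2]
  simp [hz]

theorem Fil.of_iter {z : G} (hz : ∀ g : G, g * z = z * g) {k' : ℕ}
    (h : ∀ v : G → ZMod p, (∀ x, v (x * z) = v x) → Fil p k' v) :
    ∀ (n : ℕ) (v : G → ZMod p), ((dz z)^[n] v = fun _ => 0) → Fil p (n * k') v := by
  intro n
  induction n with
  | zero =>
    intro v hv
    rw [Nat.zero_mul]
    exact hv
  | succ n ih =>
    intro v hv
    rw [Function.iterate_succ_apply] at hv
    rw [Nat.succ_mul]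
    exact Fil.central hz h _ v (ih _ hv)

/-- Nilpotency of the augmentation ideal of a finite `p`-group. -/
theorem fil_all [Fact p.Prime] : ∀ (n : ℕ) (G : Type) [Group G] [Finite G], Nat.card G = n →
    IsPGroup p G → ∃ k, ∀ v : G → ZMod p, Fil p k v := by
  have hp : p.Prime := Fact.out
  intro n
  induction n using Nat.strong_induction_on with
  | _ n ih =>
    intro G _ _ hn hG
    rcases subsingleton_or_nontrivial G with hs | hnt
    · refine ⟨1, fun v g => ?_⟩
      funext x
      rw [Subsingleton.elim (x * g) x]
      exact sub_self _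
    · have hc : Nontrivial (Subgroup.center G) := hG.center_nontrivial
      have hcp : IsPGroup p (Subgroup.center G) := hG.to_subgroup _
      have hdvd : p ∣ Nat.card (Subgroup.center G) := by
        obtain ⟨m, hm⟩ := IsPGroup.iff_card.mp hcp
        have h1 : 1 < Nat.card (Subgroup.center G) := Finite.one_lt_card
        rw [hm] at h1 ⊢
        rcases Nat.eq_zero_or_pos m with rfl | hm0
        · simp at h1
        · exact dvd_pow_self p (by omega)
      obtain ⟨⟨z, hzc⟩, hz⟩ := exists_prime_orderOf_dvd_card' p hdvd
      have hzcomm : ∀ g : G, g * z = z * g := fun g => Subgroup.mem_center_iff.mp hzc g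
      have hzp : z ^ p = 1 := by
        have h1 := pow_orderOf_eq_one (⟨z, hzc⟩ : Subgroup.center G)
        rw [hz] at h1
        exact congrArg Subtype.val h1
      have hz1 : z ≠ 1 := by
        intro h
        have h1 : (⟨z, hzc⟩ : Subgroup.center G) = 1 := Subtype.ext h
        rw [h1, orderOf_one] at hz
        exact hp.one_lt.ne hz
      let H : Subgroup G := Subgroup.zpowers z
      have hN : H.Normal := by
        constructor
        rintro h ⟨m, rfl⟩ g
        have h1 : g * z ^ m = z ^ m * g := by
          have : Commute g z := hzcomm g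
          exact this.zpow_right m
        change g * z ^ m * g⁻¹ ∈ H
        rw [h1, mul_assoc, mul_inv_cancel, mul_one]
        exact ⟨m, rfl⟩
      have hlt : Nat.card (G ⧸ H) < n := by
        have h1 := Subgroup.card_eq_card_quotient_mul_card_subgroup H
        have h2 : 1 < Nat.card H := by
          have : Nontrivial H := ⟨⟨⟨z, Subgroup.mem_zpowers z⟩, 1, fun h =>
            hz1 (congrArg Subtype.val h)⟩⟩
          exact Finite.one_lt_card
        have h3 : 0 < Nat.card (G ⧸ H) := Nat.card_pos
        rw [← hn, h1]
        nlinarith
      obtain ⟨k', hk'⟩ := ih _ hlt (G ⧸ H) rfl (hG.to_quotient H)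
      have hinv : ∀ v : G → ZMod p, (∀ x, v (x * z) = v x) → Fil p k' v := by
        intro v hv
        have hnat : ∀ (m : ℕ) (x : G), v (x * z ^ m) = v x := by
          intro m
          induction m with
          | zero => intro x; rw [pow_zero, mul_one]
          | succ m ihm => intro x; rw [pow_succ, ← mul_assoc, hv, ihm]
        have hint : ∀ (m : ℤ) (x : G), v (x * z ^ m) = v x := by
          intro m x
          rcases m with m | m
          · rw [Int.ofNat_eq_natCast, zpow_natCast]; exact hnat m x
          · rw [zpow_negSucc]
            have h1 := hnat (m + 1) (x * (z ^ (m + 1))⁻¹)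
            rw [mul_assoc, inv_mul_cancel, mul_one] at h1
            exact h1.symm
        have h1 := Fil.comp (QuotientGroup.mk' H) k'
          (fun q => v (Quotient.out q)) (hk' _)
        refine Eq.mp (congrArg (Fil p k') ?_) h1
        funext x
        change v (Quotient.out (QuotientGroup.mk x : G ⧸ H)) = v x
        obtain ⟨⟨h, m, hh⟩, he⟩ := QuotientGroup.mk_out_eq_mul H x
        rw [he]
        change v (x * h) = v x
        rw [← hh]
        exact hint m x
      exact ⟨p * k', fun v => Fil.of_iter hzcomm hinv p v (dz_p hzp v)⟩

end fil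

section group

variable {p : ℕ} {α B G : Type} [Group G]

/-- Product of the labels of a history (newest first), where the value of a label depends on the
history before it. -/
abbrev cpr {B G : Type} [Group G] (χ : List B → B → G) : List B → G := H157.hp χ

open Classical in
/-- Functions of a context product in a finite group are chain functions. -/
theorem ctx_cf [Finite G] {χ : List B → B → G} {l c : ℕ}
    (hχ : ∀ (X Y : List B) (b : B), X.length % p ^ l = Y.length % p ^ l →
      X.take c = Y.take c → χ X b = χ Y b) : ∀ (k : ℕ) (v : G → ZMod p), Fil p k v →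
    CF p l (c + 1) fun X : List B => v (cpr χ X) := by
  have := Fintype.ofFinite G
  intro k
  induction k with
  | zero =>
    intro v hv
    rw [Fil] at hv
    subst hv
    exact CF.const 0
  | succ k ih =>
    intro v hv
    let hg : G → List B → ZMod p := fun g X =>
      match X with
      | [] => 0
      | b :: X => if χ X b = g then 1 else 0
    have h0 : ∀ g : G, Loc p l (c + 1) (hg g) := by
      intro g X Y h1 h2
      cases X with
      | nil =>
        cases Y with
        | nil => rfl
        | cons y Y => simp at h2
      | cons x X =>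
        cases Y with
        | nil => simp at h2
        | cons y Y =>
          rw [List.take_succ_cons, List.take_succ_cons, List.cons.injEq] at h2
          obtain ⟨rfl, h2⟩ := h2
          have h3 : X.length % p ^ l = Y.length % p ^ l := by
            rw [List.length_cons, List.length_cons] at h1
            exact Nat.ModEq.add_right_cancel' 1 h1
          change (if χ X x = g then (1 : ZMod p) else 0) = if χ Y x = g then 1 else 0
          rw [hχ X Y x h3 h2]
    have h1 : CF p l (c + 1) fun X : List B =>
        ∑ g : G, TL (hg g) (fun X => v (cpr χ X * g) - v (cpr χ X)) X :=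
      CF.sum Finset.univ _ fun g _ => CF.T _ _ (h0 g) (ih _ (hv g))
    refine (CF.add _ _ h1 (CF.const (v 1))).cast fun X => ?_
    induction X with
    | nil => simp [TL, H157.hp]
    | cons x X ihX =>
      simp only [TL]
      rw [Finset.sum_add_distrib]
      have h3 : ∑ g : G, hg g (x :: X) * (v (cpr χ X * g) - v (cpr χ X)) =
          v (cpr χ X * χ X x) - v (cpr χ X) := by
        rw [Finset.sum_eq_single (χ X x)]
        · change (if χ X x = χ X x then (1 : ZMod p) else 0) * _ = _
          rw [if_pos rfl, one_mul]
        · intro g _ hne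
          change (if χ X x = g then (1 : ZMod p) else 0) * _ = _
          rw [if_neg (Ne.symm hne), zero_mul]
        · intro h; exact absurd (Finset.mem_univ _) h
      rw [h3, cpr, H157.hp]
      linear_combination ihX

/-- **context products in finite `p`-groups** -/
theorem ctx_sh [Fact p.Prime] (hC : AllChains p) [Finite α] [Finite G] (hG : IsPGroup p G)
    {χ : List α → α → G} {l c : ℕ}
    (hχ : ∀ (X Y : List α) (b : α), X.length % p ^ l = Y.length % p ^ l →
      X.take c = Y.take c → χ X b = χ Y b) (S : Set G) :
    SH 1 {w : List α | cpr χ w.reverse ∈ S} := by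
  classical
  obtain ⟨k, hk⟩ := fil_all (p := p) _ G rfl hG
  have h1 := hC α l (c + 1) _ (ctx_cf hχ k (fun g => if g ∈ S then 1 else 0) (hk _)) 1
  refine Eq.mp (congrArg (SH 1) ?_) h1
  ext w
  change (if cpr χ w.reverse ∈ S then (1 : ZMod p) else 0) = 1 ↔ cpr χ w.reverse ∈ S
  by_cases h : cpr χ w.reverse ∈ S
  · rw [if_pos h]; exact ⟨fun _ => h, fun _ => rfl⟩
  · rw [if_neg h]
    exact ⟨fun h' => absurd h' zero_ne_one, fun h' => absurd h' h⟩

theorem cpr_rev (φ : α → G) (w : List α) : cpr (fun _ b => φ b) w.reverse = (w.map φ).prod := by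
  induction w using List.reverseRecOn with
  | nil => rfl
  | append_singleton w b ih =>
    rw [List.reverse_append, List.reverse_cons, List.reverse_nil, List.nil_append,
      List.singleton_append, cpr, H157.hp]
    rw [show H157.hp (fun _ b => φ b) w.reverse = (w.map φ).prod from ih, List.map_append, List.prod_append]
    simp

/-- **finite `p`-groups**, letter weights only -/
theorem p_group0 [Fact p.Prime] (hC : AllChains0 p) [Finite α] [Finite G] (hG : IsPGroup p G)
    (φ : α → G) (S : Set G) : SH 1 {w : List α | (w.map φ).prod ∈ S} := by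
  classical
  obtain ⟨k, hk⟩ := fil_all (p := p) _ G rfl hG
  have h1 := hC α _ (ctx_cf (l := 0) (c := 0) (χ := fun _ b => φ b) (fun _ _ _ _ _ => rfl) k
    (fun g => if g ∈ S then 1 else 0) (hk _)) 1
  refine Eq.mp (congrArg (SH 1) ?_) h1
  ext w
  change (if cpr (fun _ b => φ b) w.reverse ∈ S then (1 : ZMod p) else 0) = 1 ↔ _
  rw [cpr_rev]
  by_cases h : (w.map φ).prod ∈ S
  · rw [if_pos h]; exact ⟨fun _ => h, fun _ => rfl⟩
  · rw [if_neg h]
    exact ⟨fun h' => absurd h' zero_ne_one, fun h' => absurd h' h⟩

end group

end Vale.Agent.P329.H434
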