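import Vale.Agent.P329.H434.Alg
import Vale.Agent.P329.H434.CtxN
import Vale.Agent.P329.Bdl.K_Bdl_K_Known
import Vale.Agent.P329.H157.Wreath
import Vale.Agent.P329.H157.Rees
import Mathlib.GroupTheory.Nilpotent

/-!
# P329 / end row: context products, annotated words, Rees matrix semigroups, over finite nilpotent
groups
-/

set_option linter.all false

namespace Vale.Agent.P329.H434

open Vale.Agent.P329

/-- context products (clock modulo `n`, finitely many letters of context) with values in `G` are
known -/
def CtxK (n : ℕ) (G : Type) [Group G] : Prop :=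
  ∀ (α : Type) [Finite α] (c : ℕ) (χ : List α → α → G),
    (∀ (X Y : List α) (b : α), X.length % n = Y.length % n → X.take c = Y.take c →
      χ X b = χ Y b) → ∀ S : Set G, SH 1 {w : List α | H157.hp χ w.reverse ∈ S}

/-- properties of the length modulo `n` and the last letters are known -/
def LocK (n : ℕ) : Prop :=
  ∀ (α : Type) [Finite α] (c : ℕ) (q : List α → Prop),
    (∀ X Y : List α, X.length % n = Y.length % n → X.take c = Y.take c → (q X ↔ q Y)) →
      SH 1 {w : List α | q w.reverse}

theorem kn_set {α B : Type} [Finite B] {F : List α → B} (h : Kn F) (S : Set B) :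
    SH 1 {w : List α | F w ∈ S} := by
  have h1 := h.comp (fun b => b ∈ S) True
  refine Eq.mp (congrArg (SH 1) ?_) h1
  ext w
  constructor
  · intro h2
    have h3 : (F w ∈ S) = True := h2
    exact of_eq_true h3
  · intro h2
    exact eq_true h2

theorem CtxK.of_p {p : ℕ} [Fact p.Prime] (hC : AllChains p) {G : Type} [Group G] [Finite G]
    (hG : IsPGroup p G) (l : ℕ) : CtxK (p ^ l) G := fun α _ c χ hχ S =>
  ctx_sh hC hG (l := l) (c := c) hχ S

theorem CtxK.pi {n : ℕ} {ι : Type} [Finite ι] {H : ι → Type} [∀ i, Group (H i)]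
    [∀ i, Finite (H i)] (h : ∀ i, CtxK n (H i)) : CtxK n (∀ i, H i) := by
  intro α _ c χ hχ S
  have h1 : ∀ i, Kn fun w : List α => H157.hp (fun X b => χ X b i) w.reverse := by
    intro i b
    exact h i α c (fun X b => χ X b i) (fun X Y b h1 h2 => congrFun (hχ X Y b h1 h2) i) {b}
  have h2 := kn_set (Kn.pi h1) S
  refine Eq.mp (congrArg (SH 1) ?_) h2
  have h3 : ∀ X : List α, (fun i => H157.hp (fun X b => χ X b i) X) = H157.hp χ X := by
    intro X
    funext i
    induction X with
    | nil => rfl
    | cons x X ih => rw [H157.hp, H157.hp, ih, Pi.mul_apply]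
  ext w
  rw [Set.mem_ofPred_eq, Set.mem_ofPred_eq, h3]

theorem CtxK.div {n : ℕ} {H : Type} [Group H] [Finite H] (h : CtxK n H) (D : Subgroup H)
    {G : Type} [Group G] (π : D →* G) (hπ : Function.Surjective π) : CtxK n G := by
  classical
  intro α _ c χ hχ S
  choose F hF using hπ
  have h2 := h α c (fun X b => (F (χ X b) : H)) (fun X Y b h1 h2 => by rw [hχ X Y b h1 h2])
    {x | ∃ d : D, (d : H) = x ∧ π d ∈ S}
  refine Eq.mp (congrArg (SH 1) ?_) h2
  have h3 : ∀ X : List α, H157.hp (fun X b => (F (χ X b) : H)) X =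
      ((H157.hp (fun X b => F (χ X b)) X : D) : H) := by
    intro X
    induction X with
    | nil => rfl
    | cons x X ih => rw [H157.hp, H157.hp, ih, Subgroup.coe_mul]
  have h4 : ∀ X : List α, π (H157.hp (fun X b => F (χ X b)) X) = H157.hp χ X := by
    intro X
    induction X with
    | nil => exact map_one π
    | cons x X ih => rw [H157.hp, H157.hp, map_mul, ih, hF]
  ext w
  rw [Set.mem_ofPred_eq, Set.mem_ofPred_eq, h3, Set.mem_ofPred_eq]
  constructor
  · rintro ⟨d, hd, hS⟩
    have h5 : d = H157.hp (fun X b => F (χ X b)) w.reverse := Subtype.ext hd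
    rw [h5, h4] at hS
    exact hS
  · intro hS
    exact ⟨_, rfl, by rw [h4]; exact hS⟩

theorem CtxK.equiv {n : ℕ} {H : Type} [Group H] [Finite H] (h : CtxK n H) {G : Type} [Group G]
    (e : H ≃* G) : CtxK n G :=
  h.div ⊤ (e.toMonoidHom.comp (Subgroup.subtype ⊤)) (by
    intro g
    exact ⟨⟨e.symm g, Subgroup.mem_top _⟩, e.apply_symm_apply g⟩)

/-- context products in finite nilpotent groups -/
theorem CtxK.nilp (hC : ∀ p : ℕ, p.Prime → AllChains p) {G : Type} [Group G] [Finite G]
    (hG : Group.IsNilpotent G) : CtxK 1 G := by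
  have hfin : ∀ p : ℕ, Finite (Sylow p G) := fun p => inferInstance
  obtain ⟨e⟩ := (Group.isNilpotent_of_finite_tfae (G := G)).out 0 4 |>.mp hG
  refine CtxK.equiv (CtxK.pi fun p => CtxK.pi fun P => ?_) e
  have hp : (p : ℕ).Prime := Nat.prime_of_mem_primeFactors p.2
  have hf : Fact (p : ℕ).Prime := ⟨hp⟩
  have h1 := CtxK.of_p (hC p hp) (G := (P : Subgroup G)) P.isPGroup' 0
  rwa [pow_zero] at h1

/-- products over words in a group with known context products -/
theorem CtxK.word {n : ℕ} {G : Type} [Group G] (h : CtxK n G) {α : Type} [Finite α] (f : α → G)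
    (S : Set G) : SH 1 {w : List α | (w.map f).prod ∈ S} := by
  have h1 := h α 0 (fun _ b => f b) (fun _ _ _ _ _ => rfl) S
  refine Eq.mp (congrArg (SH 1) ?_) h1
  ext w
  rw [Set.mem_ofPred_eq, Set.mem_ofPred_eq]
  have h2 := cpr_rev f w
  rw [cpr] at h2
  rw [h2]

/-! ### locally determined properties -/

theorem LocK.one : LocK 1 := by
  intro α _ c q hq
  refine H157.loc_sh (l := 0) (c := c) q fun X Y h1 h2 => hq X Y ?_ h2
  rw [Nat.mod_one, Nat.mod_one]

theorem LocK.of_p {p : ℕ} [Fact p.Prime] (hC : AllChains p) (l : ℕ) : LocK (p ^ l) := by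
  classical
  intro α _ c q hq
  let v : List α → ZMod p := fun X => if q X then 1 else 0
  have hv : ∀ X Y : List α, X.length % p ^ l = Y.length % p ^ l → X.take c = Y.take c →
      v X = v Y := fun X Y h1 h2 => if_congr (hq X Y h1 h2) rfl rfl
  let d : List α → ZMod p := fun X =>
    match X with
    | [] => 0
    | b :: X => v (b :: X) - v X
  have hd : Loc p l (c + 1) d := by
    intro X Y h1 h2
    cases X with
    | nil =>
      cases Y with
      | nil => rfl
      | cons y Y => simp at h2
    | cons x X =>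
      cases Y with
      | nil => simp at h2
      | cons y Y =>
        have h4 : (x :: X).take c = (y :: Y).take c := by
          have := congrArg (List.take c) h2
          rwa [List.take_take, List.take_take, Nat.min_eq_left (Nat.le_succ c)] at this
        rw [List.take_succ_cons, List.take_succ_cons, List.cons.injEq] at h2
        obtain ⟨rfl, h2⟩ := h2
        have h3 : X.length % p ^ l = Y.length % p ^ l := by
          rw [List.length_cons, List.length_cons] at h1
          exact Nat.ModEq.add_right_cancel' 1 h1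
        change v (x :: X) - v X = v (x :: Y) - v Y
        rw [hv _ _ h1 h4, hv _ _ h3 h2]
  have h1 : CF p l (c + 1) v := by
    refine (CF.add _ _ (CF.T d _ hd (CF.const 1)) (CF.const (v []))).cast fun X => ?_
    induction X with
    | nil => simp [TL]
    | cons x X ih =>
      rw [TL]
      change TL d (fun _ => 1) X + (v (x :: X) - v X) * 1 + v [] = v (x :: X)
      rw [← ih]; ring
  have h2 := hC α l (c + 1) v h1 1
  refine Eq.mp (congrArg (SH 1) ?_) h2
  ext w
  change (if q w.reverse then (1 : ZMod p) else 0) = 1 ↔ q w.reverse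
  by_cases h : q w.reverse
  · rw [if_pos h]; exact ⟨fun _ => h, fun _ => rfl⟩
  · rw [if_neg h]
    exact ⟨fun h' => absurd h' zero_ne_one, fun h' => absurd h' h⟩

/-! ### annotated words -/

section ann

variable {α G : Type} [Group G] {n : ℕ}

theorem zmod_lenN {m k : ℕ} (h : m % n = k % n) : (m : ZMod n) = (k : ZMod n) :=
  (ZMod.natCast_eq_natCast_iff' m k _).mpr h

/-- The product along a word, in the order of the word. -/
theorem hp_eqN (n c : ℕ) (ψ : ZMod n → List α → α → G) (Y : List α) :
    H157.hp (fun X b => ψ (X.length : ZMod n) (X.take c).reverse b) Y.reverse =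
      ctxProdN n c ψ Y := by
  rw [ctxProdN]
  induction Y using List.reverseRecOn with
  | nil => rfl
  | append_singleton Y b ih =>
    rw [List.reverse_append, List.reverse_cons, List.reverse_nil, List.nil_append,
      List.singleton_append, H157.hp, ih, List.zipIdx_append, List.map_append, List.prod_append]
    congr 1
    · congr 1
      apply List.map_congr_left
      rintro ⟨x, i⟩ hx
      have hi : i < Y.length := by
        have := List.mem_zipIdx hx
        omega
      change ψ _ ((Y.take i).drop (i - c)) x = ψ _ (((Y ++ [b]).take i).drop (i - c)) x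
      rw [List.take_append_of_le_length hi.le]
    · simp only [List.zipIdx_cons, List.zipIdx_nil, List.map_cons, List.map_nil, List.prod_cons,
        List.prod_nil, mul_one, Nat.zero_add, List.length_reverse]
      congr 1
      rw [List.take_append_of_le_length le_rfl, List.take_length, List.take_reverse,
        List.reverse_reverse]

/-- Context products over letters. -/
theorem CtxK.letters (h : CtxK n G) [Finite α] (c : ℕ) (ψ : ZMod n → List α → α → G)
    (S : Set G) : SH 1 {w : List α | ctxProdN n c ψ w ∈ S} := by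
  have h1 := h α c (fun X b => ψ (X.length : ZMod n) (X.take c).reverse b) (by
      intro X Y b h1 h2
      change ψ _ _ _ = ψ _ _ _
      rw [zmod_lenN h1, h2]) S
  refine Eq.mp (congrArg (SH 1) ?_) h1
  ext w
  rw [Set.mem_ofPred_eq, Set.mem_ofPred_eq, hp_eqN]

/-- states: the clock, the last letters (most recent first), the value -/
abbrev CSN (α G : Type) (n c : ℕ) : Type := ZMod n × {Z : List α // Z.length ≤ c} × G

/-- transitions -/
def cstepN {c : ℕ} (ψ : ZMod n → List α → α → G) (q : CSN α G n c) (a : α) : CSN α G n c :=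
  (q.1 + 1, ⟨(a :: q.2.1.1).take c, (List.length_take_le c _)⟩,
    q.2.2 * ψ q.1 q.2.1.1.reverse a)

theorem cstepN_run {c : ℕ} (ψ : ZMod n → List α → α → G) (q : CSN α G n c) (w : List α) :
    (w.foldl (cstepN ψ) q).1 = q.1 + (w.length : ZMod n) ∧
    (w.foldl (cstepN ψ) q).2.1.1 = (w.reverse ++ q.2.1.1).take c ∧
    (w.foldl (cstepN ψ) q).2.2 = q.2.2 *
      H157.hp (fun X b => ψ (q.1 + (X.length : ZMod n)) ((X ++ q.2.1.1).take c).reverse b)
        w.reverse := by
  induction w using List.reverseRecOn with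
  | nil =>
    refine ⟨by simp, ?_, by simp [H157.hp]⟩
    change q.2.1.1 = _
    rw [List.reverse_nil, List.nil_append, List.take_of_length_le q.2.1.2]
  | append_singleton w b ih =>
    obtain ⟨h1, h2, h3⟩ := ih
    rw [List.foldl_append, List.foldl_cons, List.foldl_nil]
    refine ⟨?_, ?_, ?_⟩
    · change (w.foldl (cstepN ψ) q).1 + 1 = _
      rw [h1, List.length_append, List.length_singleton]
      push_cast; ring
    · change (b :: (w.foldl (cstepN ψ) q).2.1.1).take c = _
      rw [h2, H157.take_take_append _ _ _ q.2.1.2]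
      simp
    · change (w.foldl (cstepN ψ) q).2.2 * ψ (w.foldl (cstepN ψ) q).1
        ((w.foldl (cstepN ψ) q).2.1.1).reverse b = _
      rw [h1, h2, h3]
      have : (w ++ [b]).reverse = b :: w.reverse := by simp
      rw [this, H157.hp, mul_assoc, List.length_reverse]

theorem cstepN_sh (hL : LocK n) (hG : CtxK n G) [Finite α] {c : ℕ}
    (ψ : ZMod n → List α → α → G) (q q' : CSN α G n c) :
    SH 1 {u : List α | u.foldl (cstepN ψ) q = q'} := by
  have h1 := hL α c
    (fun X => q.1 + (X.length : ZMod n) = q'.1 ∧ (X ++ q.2.1.1).take c = q'.2.1.1) (by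
      intro X Y h1 h2
      rw [zmod_lenN h1, H157.take_app_congr h2])
  have h2 := hG α c
    (fun X b => ψ (q.1 + (X.length : ZMod n)) ((X ++ q.2.1.1).take c).reverse b) (by
      intro X Y b h1 h2
      change ψ _ _ _ = ψ _ _ _
      rw [zmod_lenN h1, H157.take_app_congr h2]) {q.2.2⁻¹ * q'.2.2}
  refine Eq.mp (congrArg (SH 1) ?_) (h1.inter h2)
  ext w
  obtain ⟨h3, h4, h5⟩ := cstepN_run ψ q w
  constructor
  · rintro ⟨⟨h6, h7⟩, hX⟩
    rw [Set.mem_ofPred_eq, Set.mem_singleton_iff, eq_inv_mul_iff_mul_eq] at hX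
    rw [List.length_reverse] at h6
    refine Prod.ext (h3.trans h6) (Prod.ext (Subtype.ext (h4.trans h7)) (h5.trans hX))
  · intro h
    rw [Set.mem_ofPred_eq] at h
    rw [h] at h3 h4 h5
    refine ⟨⟨?_, h4.symm⟩, ?_⟩
    · rw [List.length_reverse]; exact h3.symm
    · rw [Set.mem_ofPred_eq, Set.mem_singleton_iff, eq_inv_mul_iff_mul_eq]
      exact h5.symm

theorem ctxProdN_eq (n c : ℕ) (ψ : ZMod n → List α → α → G) (w : List α) :
    (w.foldl (cstepN ψ) ((0, ⟨[], Nat.zero_le c⟩, 1) : CSN α G n c)).2.2 = ctxProdN n c ψ w := by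
  rw [(cstepN_run ψ _ w).2.2, one_mul, ← hp_eqN]
  simp only [zero_add, List.append_nil]

/-- Star-free languages over words annotated by a context product. -/
theorem CtxK.ann [NeZero n] (hL : LocK n) (hG : CtxK n G) [Finite α] [Finite G] (c : ℕ)
    (ψ : ZMod n → List α → α → G) (e : GRE (G × α)) (he : e.height = 0) :
    SH 1 {w : List α | (w.zipIdx.map fun x => (ctxProdN n c ψ (w.take x.2), x.1)) ∈ e.lang} := by
  have hfin : Finite {Z : List α // Z.length ≤ c} :=
    (List.finite_length_le α c).to_subtype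
  have h1 := H157.ann_sh (cstepN ψ) (fun q : CSN α G n c => q.2.2) (cstepN_sh hL hG ψ) e he
    (0, ⟨[], Nat.zero_le c⟩, 1)
  refine Eq.mp (congrArg (SH 1) ?_) h1
  ext w
  rw [Set.mem_ofPred_eq, Set.mem_ofPred_eq, H157.ann_zipIdx]
  simp only [ctxProdN_eq]

end ann

/-! ### Rees matrix semigroups with zero -/

section rees

variable {α G I Λ : Type} [Group G] (P : Λ → I → Option G) (f : α → Option (I × G × Λ))

/-- Languages recognised by Rees matrix semigroups with zero over a group with known context
products. -/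
theorem CtxK.rees (hG : CtxK 1 G) [Finite α] [Finite G] [Finite I] [Finite Λ]
    (S : Set (Option (I × G × Λ))) :
    SH 1 {w : List α | ∃ a u, w = a :: u ∧ (u.map f).foldl (reesMul P) (f a) ∈ S} := by
  have hχ : ∀ (X Y : List α) (b : α), X.length % 1 = Y.length % 1 →
      X.take 1 = Y.take 1 → H157.rchi P f X b = H157.rchi P f Y b := by
    intro X Y b _ h
    have : X.head? = Y.head? := by
      cases X <;> cases Y <;> simp_all
    rw [H157.rchi, H157.rchi, this]
  have h0 : ∀ t : I × G × Λ, SH 1 {w : List α | ∃ a u, w = a :: u ∧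
      (u.map f).foldl (reesMul P) (f a) = some t} := by
    rintro ⟨i, g, l⟩
    have h1 : SH 1 (⋃ a : α, ⋃ b : α, ⋃ _ : (∃ g0 l0, f a = some (i, g0, l0)) ∧
        ∃ j h, f b = some (j, h, l), (({w : List α | w.head? = some a} ∩
          {w : List α | w.getLast? = some b}) ∩
          {w : List α | w.IsChain (fun x y => reesMul P (f x) (f y) ≠ none)}) ∩
          {w : List α | H157.hp (H157.rchi P f) w.reverse ∈ ({g} : Set G)}) :=
      SH.iUnion fun a => SH.iUnion fun b => SH.iUnion_prop fun _ =>
        (((H157.sh_head a).of_zero.inter (H157.sh_last b).of_zero).inter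
          (H157.sh_chain _).of_zero).inter (hG α 1 _ hχ {g})
    refine Eq.mp (congrArg (SH 1) ?_) h1
    ext w
    simp only [Set.mem_iUnion]
    constructor
    · rintro ⟨a, b, ⟨h2, j, h, h3⟩, ⟨⟨h4, h5⟩, h6⟩, hX⟩
      cases w with
      | nil => cases h4
      | cons a' u =>
        have h7 : a' = a := Option.some.inj h4
        subst h7
        exact ⟨a', u, rfl, (H157.rees_iff P f a' i l u g).mpr ⟨h2, ⟨b, j, h, h5, h3⟩, h6, hX⟩⟩
    · rintro ⟨a, u, rfl, h2⟩
      obtain ⟨h3, ⟨b, j, h, h4, h5⟩, h6, h7⟩ := (H157.rees_iff P f a i l u g).mp h2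
      exact ⟨a, b, ⟨h3, j, h, h5⟩, ⟨⟨rfl, h4⟩, h6⟩, h7⟩
  have h1 : SH 1 (⋃ t : I × G × Λ, ⋃ _ : some t ∈ S, {w : List α | ∃ a u, w = a :: u ∧
      (u.map f).foldl (reesMul P) (f a) = some t}) :=
    SH.iUnion fun t => SH.iUnion_prop fun _ => h0 t
  have h2 : SH 1 (⋃ _ : none ∈ S, ((⋃ t : I × G × Λ, {w : List α | ∃ a u, w = a :: u ∧
      (u.map f).foldl (reesMul P) (f a) = some t}) ∪ {[]})ᶜ) :=
    SH.iUnion_prop fun _ => ((SH.iUnion fun t => h0 t).union SH.eps).compl
  refine Eq.mp (congrArg (SH 1) ?_) (h1.union h2)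
  ext w
  rw [Set.mem_union, Set.mem_iUnion, Set.mem_iUnion]
  constructor
  · rintro (⟨t, h⟩ | ⟨hS, h⟩)
    · rw [Set.mem_iUnion] at h
      obtain ⟨hS, a, u, rfl, h⟩ := h
      exact ⟨a, u, rfl, by rw [h]; exact hS⟩
    · cases w with
      | nil => exact absurd (Or.inr rfl) h
      | cons a u =>
        refine ⟨a, u, rfl, ?_⟩
        cases hv : (u.map f).foldl (reesMul P) (f a) with
        | none => exact hS
        | some t =>
          exfalso
          apply h
          left
          rw [Set.mem_iUnion]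
          exact ⟨t, a, u, rfl, hv⟩
  · rintro ⟨a, u, rfl, h⟩
    cases hv : (u.map f).foldl (reesMul P) (f a) with
    | none =>
      right
      rw [hv] at h
      refine ⟨h, ?_⟩
      rintro (h3 | h3)
      · rw [Set.mem_iUnion] at h3
        obtain ⟨t, a', u', he, h4⟩ := h3
        rw [List.cons.injEq] at he
        obtain ⟨rfl, rfl⟩ := he
        rw [hv] at h4
        cases h4
      · cases h3
    | some t =>
      left
      rw [hv] at h
      refine ⟨t, ?_⟩
      rw [Set.mem_iUnion]
      exact ⟨h, a, u, rfl, hv⟩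

end rees

end Vale.Agent.P329.H434
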