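import Vale.Agent.P329.H434.RowG1

/-!
# P329 / rows G3, G4
-/

set_option linter.all false

namespace Vale.Agent.P329.H434

open Vale.Agent.P329 Vale.Agent.P329.H962

theorem rowG3 : RowG3 := by
  intro α B p _ w' h β F M M' τ hZ hpr hRep
  obtain ⟨z, hz1, hz2⟩ := hZ.z
  obtain ⟨Jτ, hJτ, hτ⟩ := hRep
  have hnb := hZ.nb
  have key : ∀ m ∈ M', ∀ J, ∃ Y : List α, Near (ext β h) m J Y := by
    intro m hm J
    obtain ⟨k, hk⟩ := hz2 m hm J
    obtain ⟨X, hX⟩ := (hz1 (J + k)).exists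
    refine ⟨X.drop k, ?_⟩
    have h1 := near_drop hX
    refine ⟨h1.1, fun i hi => ?_⟩
    rw [h1.2 i hi, ← hk i hi, Nat.add_comm]
  refine ⟨hpr, fun m hm => ?_, fun m hm => ?_⟩
  · obtain ⟨Y, hY⟩ := key m hm 2
    have h0 := hY.2 0 (by omega)
    have h1 := hY.2 1 (by omega)
    rw [List.drop_zero] at h0
    rw [← h0, ← h1]
    cases Y with
    | nil =>
      have := hY.1
      simp at this
    | cons a Y =>
      change N h (a :: Y) = N h Y + h (a :: Y)
      rfl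
  · obtain ⟨Y, hY⟩ := key m hm (Jτ + 1)
    have h0 := hY.2 0 (by omega)
    rw [List.drop_zero] at h0
    have h1 : Near β (pr1 m) Jτ Y := by
      refine ⟨by have := hY.1; omega, fun i hi => ?_⟩
      have := hY.2 i (by omega)
      change β (Y.drop i) = (m i).1
      rw [← this]
      rfl
    rw [← hτ (pr1 m) (hpr m hm) Y h1, ← h0]
    rfl

theorem rowG4 (hB2 : RowB2) (hB3 : RowB3) (hC : RowC) : RowG4 := by
  intro α B _ p _ w h β wB lB ρ hS hSys hU
  obtain ⟨-, hpair, -⟩ := hC α p (rc h ρ)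
  obtain ⟨-, -, -, -, -, -, -, -, hunt, -⟩ := hC α p w
  refine ⟨fun X => rfl, fun X => hSys.l_eq X, ?_⟩
  have h1 : Lc (rc h ρ) β := hB2 α B p w h hS hU ρ β hSys.lc
  have h2 : Lc (rc h ρ) h := hB2 α (ZMod p) p w h hS hU ρ h (hunt h hU)
  have h3 : Lc (rc h ρ) (N h) := hB3 α p w h hS hU ρ
  exact hpair _ _ _ _ h1 (hpair _ _ _ _ h3 h2)

end Vale.Agent.P329.H434
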