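import Vale.Agent.P329.H962.Fin
import Vale.Agent.P329.H434.RowK
import Vale.Agent.P329.H320.Final
import Vale.Agent.P329.H320.OfK

/-!
# P329: the closure of all rows
-/

namespace Vale.Agent.P329.H434

open Vale.Agent.P329

/-- row K, no hypotheses -/
theorem rowK' : H962.RowK :=
  rowK H483.rowC H657.rowF1 (H320.rowF6) H962.Fin.core

/-- products of upper unitriangular memory weights over `ZMod p`, `p` any prime -/
theorem core_all : ∀ (p : ℕ), p.Prime → ∀ (α : Type) [Finite α] (c : ℕ), H320.Core p α c :=
  H320.core_of_rowK rowK'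

end Vale.Agent.P329.H434
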